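import Vale.Agent.P235.R2.H11.Subdiv
import Vale.Agent.P235.R2.H611.StarMetric
import Vale.Agent.P235.R2.H673.RowB

/-!
P235-M, all planar (helper11).  From a plane map with arbitrary positive lengths to the medium: a
plane map with integral heights, one local minimum, and length `|h u - h v|` on every edge.
-/

namespace Vale.Agent.P235.R2.H11

open Vale.Agent.P235 SimpleGraph Equiv Vale.Agent.P235.R2.H673 Vale.Agent.P235.Red.F0
  Vale.Agent.P235.Tight

variable {V : Type}

/-- the length of an edge is the difference of the heights -/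
def rlen (h : V → ℝ) : Sym2 V → ℝ :=
  Sym2.lift ⟨fun u v => |h u - h v|, fun _ _ => abs_sub_comm _ _⟩

theorem rlen_mk (h : V → ℝ) (u v : V) : rlen h s(u, v) = |h u - h v| := rfl

/-- The medium: a connected plane map with heights which differ on every edge, and only one
local minimum `r`. -/
structure Med (G : SimpleGraph V) (σ : Perm G.Dart) (h : V → ℝ) (r : V) : Prop where
  conn : G.Connected
  plane : PlaneMap G σ
  ne : ∀ u v, G.Adj u v → h u ≠ h v
  low : ∀ v, v ≠ r → ∃ u, G.Adj v u ∧ h u < h v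

/-- the theorem about the medium with integral heights: distortion `C n` for `n` vertices -/
def MediumThm (C : ℕ → ℝ) : Prop :=
  ∀ (V : Type) [Finite V] (G : SimpleGraph V) (σ : Perm G.Dart) (h : V → ℕ) (r : V),
    Med G σ (fun v => (h v : ℝ)) r →
    EmbedsL1 (pathDist G (rlen fun v => (h v : ℝ))) (C (Nat.card V))

/-- the height of the new vertex on an edge: the middle of a tight edge, the peak of another -/
noncomputable def pk (ℓ : Sym2 V → ℝ) (h : V → ℝ) : Sym2 V → ℝ :=
  Sym2.lift ⟨fun u v => if ℓ s(u, v) ≤ |h u - h v| then (h u + h v) / 2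
    else (h u + h v + ℓ s(u, v)) / 2, fun u v => by
      beta_reduce
      rw [Sym2.eq_swap, abs_sub_comm, add_comm (h u) (h v)]⟩

theorem pk_mk (ℓ : Sym2 V → ℝ) (h : V → ℝ) (u v : V) :
    pk ℓ h s(u, v) = if ℓ s(u, v) ≤ |h u - h v| then (h u + h v) / 2
      else (h u + h v + ℓ s(u, v)) / 2 := rfl

theorem pk_sum {ℓ : Sym2 V → ℝ} {h : V → ℝ} {u v : V} (hl : |h u - h v| ≤ ℓ s(u, v)) :
    |h u - pk ℓ h s(u, v)| + |h v - pk ℓ h s(u, v)| = ℓ s(u, v) := by
  rw [pk_mk]
  obtain ⟨h1, h2⟩ := abs_le.1 hl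
  split_ifs with ht
  · have e1 : h u - (h u + h v) / 2 = (h u - h v) / 2 := by ring
    have e2 : h v - (h u + h v) / 2 = - ((h u - h v) / 2) := by ring
    rw [e1, e2, abs_neg, abs_div, abs_two]
    linarith
  · have e1 : h u - (h u + h v + ℓ s(u, v)) / 2 = - ((ℓ s(u, v) - (h u - h v)) / 2) := by ring
    have e2 : h v - (h u + h v + ℓ s(u, v)) / 2 = - ((ℓ s(u, v) + (h u - h v)) / 2) := by ring
    rw [e1, e2, abs_neg, abs_neg, abs_of_nonneg (by linarith), abs_of_nonneg (by linarith)]
    ring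

theorem pk_ne {ℓ : Sym2 V → ℝ} {h : V → ℝ} {u v : V} (hp : 0 < ℓ s(u, v)) :
    h u ≠ pk ℓ h s(u, v) := by
  rw [pk_mk]
  intro he
  split_ifs at he with ht
  · have h1 : h u - h v = 0 := by linarith
    rw [h1, abs_zero] at ht
    linarith
  · apply ht
    have h1 : ℓ s(u, v) = h u - h v := by linarith
    rw [h1]
    exact le_abs_self _

/-- heights of the subdivision -/
noncomputable def hs (G : SimpleGraph V) (ℓ : Sym2 V → ℝ) (h : V → ℝ) : V ⊕ G.edgeSet → ℝ :=
  Sum.elim h fun e => pk ℓ h e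

section main

variable {G : SimpleGraph V} {ℓ : Sym2 V → ℝ} {h : V → ℝ}

theorem hs_inl (v : V) : hs G ℓ h (Sum.inl v) = h v := rfl

theorem hs_inr (e : G.edgeSet) : hs G ℓ h (Sum.inr e) = pk ℓ h e := rfl

/-- every edge of the subdivision is a half of an edge -/
theorem sub_cases {P : V ⊕ G.edgeSet → V ⊕ G.edgeSet → Prop} (hP : ∀ x y, P x y → P y x)
    (h0 : ∀ u v (huv : G.Adj u v), P (Sum.inl u) (Sum.inr ⟨s(u, v), huv⟩)) :
    ∀ x y, (sub G).Adj x y → P x y := by
  have key : ∀ (v : V) (e : G.edgeSet), v ∈ (e : Sym2 V) → P (Sum.inl v) (Sum.inr e) := by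
    rintro v ⟨e, he⟩ hv
    obtain ⟨w, rfl⟩ := hv
    exact h0 v w he
  rintro (v | e) (w | f) ha
  · exact absurd ha sub_ll
  · exact key v f ha
  · exact hP _ _ (key w e ha)
  · exact absurd ha sub_rr

theorem ne_sub (hp : ∀ e ∈ G.edgeSet, 0 < ℓ e) :
    ∀ x y, (sub G).Adj x y → hs G ℓ h x ≠ hs G ℓ h y := by
  refine sub_cases (fun x y hxy => hxy.symm) fun u v huv => ?_
  exact pk_ne (hp _ huv)

theorem rlen_pos {W : Type} {F : SimpleGraph W} {g : W → ℝ} (hne : ∀ x y, F.Adj x y → g x ≠ g y) :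
    ∀ x y, F.Adj x y → 0 < rlen g s(x, y) := fun x y ha =>
  abs_pos.2 (sub_ne_zero.2 (hne x y ha))

/-- The metric of `V` does not change. -/
theorem pathDist_sub [Nonempty V] [Finite V] (hc : G.Connected) (hp : ∀ e ∈ G.edgeSet, 0 < ℓ e)
    (hl : ∀ u v, G.Adj u v → |h u - h v| ≤ ℓ s(u, v)) (x y : V) :
    pathDist (sub G) (rlen (hs G ℓ h)) (Sum.inl x) (Sum.inl y) = pathDist G ℓ x y := by
  have hcs := connected_sub hc
  have hne := ne_sub (h := h) hp
  have hpos := rlen_pos hne
  have hge : ∀ a b, (sub G).Adj a b → 0 ≤ rlen (hs G ℓ h) s(a, b) := fun a b ha => (hpos a b ha).le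
  have hg0 : ∀ a b, G.Adj a b → 0 ≤ ℓ s(a, b) := fun a b ha => (hp _ ha).le
  refine le_antisymm ?_ ?_
  · refine pd_map_le hc hcs hpos (fun v => Sum.inl v) (fun u v ha => ?_) x y
    have e1 : (sub G).Adj (Sum.inl u) (Sum.inr ⟨s(u, v), ha⟩) := Sym2.mem_mk_left u v
    have e2 : (sub G).Adj (Sum.inr ⟨s(u, v), ha⟩) (Sum.inl v) := Sym2.mem_mk_right u v
    have h1 := pathDist_le_walk hge (Walk.cons e1 (Walk.cons e2 Walk.nil))
    refine h1.trans (le_of_eq ?_)
    rw [Walk.edges_cons, Walk.edges_cons, Walk.edges_nil, List.map_cons, List.map_cons, List.map_nil,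
      List.sum_cons, List.sum_cons, List.sum_nil, add_zero, rlen_mk, rlen_mk, hs_inl, hs_inl, hs_inr,
      abs_sub_comm _ (h v)]
    exact pk_sum (hl u v ha)
  · -- the extension of the distance from `x`
    set D : V → ℝ := pathDist G ℓ x with hD
    set q : Sym2 V → ℝ := Sym2.lift ⟨fun u v => min (D u + |h u - pk ℓ h s(u, v)|)
      (D v + |h v - pk ℓ h s(u, v)|), fun u v => by beta_reduce; rw [min_comm, Sym2.eq_swap]⟩ with hq
    have hlipD : ∀ u v, G.Adj u v → D v ≤ D u + ℓ s(u, v) := by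
      intro u v ha
      have h1 : pathDist G ℓ x v ≤ pathDist G ℓ x u + pathDist G ℓ u v :=
        d_tri hc hp x u v
      have h2 : pathDist G ℓ u v ≤ ℓ s(u, v) := by
        have h3 := pathDist_le_walk hg0 (Walk.cons ha Walk.nil)
        simpa using h3
      linarith
    set F : V ⊕ G.edgeSet → ℝ := Sum.elim D fun e => q e with hF
    have hlip : ∀ a b, (sub G).Adj a b → |F a - F b| ≤ rlen (hs G ℓ h) s(a, b) := by
      refine sub_cases (fun a b hab => ?_) fun u v huv => ?_
      · rw [abs_sub_comm, Sym2.eq_swap]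
        exact hab
      · have e1 : F (Sum.inl u) = D u := rfl
        have e2 : F (Sum.inr ⟨s(u, v), huv⟩) = min (D u + |h u - pk ℓ h s(u, v)|)
            (D v + |h v - pk ℓ h s(u, v)|) := rfl
        rw [e1, e2, rlen_mk, hs_inl, hs_inr]
        have h1 := pk_sum (hl u v huv)
        have h2 := hlipD u v huv
        have h3 := hlipD v u huv.symm
        rw [Sym2.eq_swap] at h3
        have h4 : ((⟨s(u, v), huv⟩ : G.edgeSet) : Sym2 V) = s(u, v) := rfl
        rw [h4]
        have h5 : 0 ≤ |h u - pk ℓ h s(u, v)| := abs_nonneg _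
        have h6 : 0 ≤ |h v - pk ℓ h s(u, v)| := abs_nonneg _
        rw [abs_le]
        rcases le_total (D u + |h u - pk ℓ h s(u, v)|) (D v + |h v - pk ℓ h s(u, v)|) with hm | hm
        · rw [min_eq_left hm]
          constructor <;> linarith
        · rw [min_eq_right hm]
          constructor <;> linarith
    have h1 := abs_sub_le_pathDist hlip (hcs.preconnected (Sum.inl x) (Sum.inl y))
    have h2 : F (Sum.inl x) = 0 := d_self hp x
    have h3 : F (Sum.inl y) = pathDist G ℓ x y := rfl
    rw [h2, h3, zero_sub, abs_neg] at h1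
    exact (le_abs_self _).trans h1

/-- the subdivision with the distance from `r` as height is a medium -/
theorem med_sub [Finite V] {σ : Perm G.Dart} (hc : G.Connected) (hP : PlaneMap G σ)
    (hp : ∀ e ∈ G.edgeSet, 0 < ℓ e) (r : V) :
    Med (sub G) (rotS σ) (hs G ℓ (pathDist G ℓ r)) (Sum.inl r) where
  conn := by
    have : Nonempty V := ⟨r⟩
    exact connected_sub hc
  plane := planeMap_sub hP
  ne := ne_sub hp
  low := by
    have hlip : ∀ u v, G.Adj u v → |pathDist G ℓ r u - pathDist G ℓ r v| ≤ ℓ s(u, v) := by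
      intro u v ha
      have h1 := d_tri hc hp r u v
      have h2 := d_tri hc hp r v u
      have h3 := d_adj hp ha
      have h4 := d_adj hp ha.symm
      rw [Sym2.eq_swap] at h4
      rw [abs_le]
      constructor <;> linarith
    rintro (v | ⟨e, he⟩) hv
    · obtain ⟨w, ha, hw⟩ := exists_first hc hp (r := r) (v := v) fun h => hv (congrArg Sum.inl h)
      rw [d_symm hc hp w r, d_symm hc hp v r] at hw
      have hpos := hp _ (show s(v, w) ∈ G.edgeSet from ha)
      refine ⟨Sum.inr ⟨s(v, w), ha⟩, Sym2.mem_mk_left v w, ?_⟩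
      rw [hs_inl, hs_inr]
      show pk ℓ (pathDist G ℓ r) s(v, w) < _
      rw [pk_mk, if_pos (by rw [abs_of_nonneg (by linarith)]; linarith)]
      linarith
    · induction e using Sym2.ind with
      | _ u v =>
        have ha : G.Adj u v := he
        have hpos := hp _ he
        have h1 := hlip u v ha
        by_cases ht : ℓ s(u, v) ≤ |pathDist G ℓ r u - pathDist G ℓ r v|
        · rcases lt_or_ge (pathDist G ℓ r u) (pathDist G ℓ r v) with hlt | hge
          · refine ⟨Sum.inl u, Sym2.mem_mk_left u v, ?_⟩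
            rw [hs_inl, hs_inr]
            show _ < pk ℓ (pathDist G ℓ r) s(u, v)
            rw [pk_mk, if_pos ht]
            linarith
          · refine ⟨Sum.inl v, Sym2.mem_mk_right u v, ?_⟩
            rw [hs_inl, hs_inr]
            show _ < pk ℓ (pathDist G ℓ r) s(u, v)
            rw [pk_mk, if_pos ht]
            rw [abs_of_nonneg (by linarith)] at ht
            linarith
        · refine ⟨Sum.inl u, Sym2.mem_mk_left u v, ?_⟩
          rw [hs_inl, hs_inr]
          show _ < pk ℓ (pathDist G ℓ r) s(u, v)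
          rw [pk_mk, if_neg ht]
          have := le_abs_self (pathDist G ℓ r u - pathDist G ℓ r v)
          linarith [not_le.1 ht]

/-- rounding the heights of a medium -/
theorem embeds_of_nat {C : ℕ → ℝ} (hC : ∀ n, 0 ≤ C n) (hM : MediumThm C) {W : Type} [Finite W]
    {F : SimpleGraph W} {τ : Perm F.Dart} {g : W → ℝ} {r : W} (hF : Med F τ g r) :
    EmbedsL1 (pathDist F (rlen g)) (2 * C (Nat.card W)) := by
  obtain ⟨m, h', hm, hord, hcmp⟩ := exists_nat_height g
  have hpos := rlen_pos hF.ne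
  have hE := hM W F τ h' r ⟨hF.conn, hF.plane, fun u v ha => by
      rcases lt_or_gt_of_ne (hF.ne u v ha) with h1 | h1
      · exact ((hord u v).2 h1).ne
      · exact ((hord v u).2 h1).ne', fun v hv => by
      obtain ⟨u, ha, hu⟩ := hF.low v hv
      exact ⟨u, ha, (hord u v).2 hu⟩⟩
  have up : ∀ x y, pathDist F (rlen fun v => (h' v : ℝ)) x y ≤
      4 / 3 * m * pathDist F (rlen g) x y := by
    refine pathDist_le_mul (by positivity) (fun u v _ => abs_nonneg _) fun u v ha => ?_
    have := (hcmp u v (hF.ne u v ha)).1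
    rw [rlen_mk, rlen_mk]
    linarith
  have lo : ∀ x y, pathDist F (rlen g) x y ≤
      3 / (2 * m) * pathDist F (rlen fun v => (h' v : ℝ)) x y := by
    refine pathDist_le_mul (by positivity) (fun u v ha => (hpos u v ha).le) fun u v ha => ?_
    have := (hcmp u v (hF.ne u v ha)).2
    rw [rlen_mk, rlen_mk]
    calc |g u - g v| = 3 / (2 * m) * (2 / 3 * (m * |g u - g v|)) := by field_simp
      _ ≤ 3 / (2 * m) * |(h' u : ℝ) - h' v| := by gcongr
  refine embedsL1_scale (c := 3 / (2 * m)) (by positivity) hE lo fun x y => ?_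
  have h1 := up x y
  have h2 : 0 ≤ 3 / (2 * m) * C (Nat.card W) := mul_nonneg (by positivity) (hC _)
  calc 3 / (2 * m) * (C (Nat.card W) * pathDist F (rlen fun v => (h' v : ℝ)) x y)
      = 3 / (2 * m) * C (Nat.card W) * pathDist F (rlen fun v => (h' v : ℝ)) x y := by ring
    _ ≤ 3 / (2 * m) * C (Nat.card W) * (4 / 3 * m * pathDist F (rlen g) x y) :=
        mul_le_mul_of_nonneg_left h1 h2
    _ = 2 * C (Nat.card W) * pathDist F (rlen g) x y := by field_simp; ring

/-- **The reduction**: a theorem about the medium gives a theorem about all plane maps. -/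
theorem reduce {C : ℕ → ℝ} (hC : ∀ n, 0 ≤ C n) (hM : MediumThm C) (V : Type) [Finite V]
    (G : SimpleGraph V) (σ : Perm G.Dart) (ℓ : Sym2 V → ℝ) (hc : G.Connected) (hP : PlaneMap G σ)
    (hp : ∀ e ∈ G.edgeSet, 0 < ℓ e) :
    EmbedsL1 (pathDist G ℓ) (2 * C (Nat.card V + Nat.card G.edgeSet)) := by
  obtain ⟨r⟩ := hc.nonempty
  have : Nonempty V := ⟨r⟩
  have := finite_edgeSet G
  have hl : ∀ u v, G.Adj u v → |pathDist G ℓ r u - pathDist G ℓ r v| ≤ ℓ s(u, v) := by
    intro u v ha
    have h1 := d_tri hc hp r u v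
    have h2 := d_tri hc hp r v u
    have h3 := d_adj hp ha
    have h4 := d_adj hp ha.symm
    rw [Sym2.eq_swap] at h4
    rw [abs_le]
    constructor <;> linarith
  obtain ⟨Ω, mΩ, μ, f, hf⟩ := embeds_of_nat hC hM (med_sub hc hP hp r)
  refine ⟨Ω, mΩ, μ, fun v => f (Sum.inl v), fun x y => ?_⟩
  have h1 := hf (Sum.inl x) (Sum.inl y)
  rw [pathDist_sub hc hp hl, Nat.card_sum] at h1
  exact h1

/-- a coarse bound for the number of edges -/
theorem card_edgeSet_le [Finite V] (G : SimpleGraph V) : Nat.card G.edgeSet ≤ Nat.card V ^ 2 := by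
  have h1 := two_mul_card_edgeSet G
  have h2 : Nat.card G.Dart ≤ Nat.card (V × V) :=
    Nat.card_le_card_of_injective (fun d : G.Dart => d.toProd) fun d e h => Dart.ext _ _ h
  rw [Nat.card_prod] at h2
  nlinarith

end main

end Vale.Agent.P235.R2.H11
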