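import Vale.Agent.P235.H536.PlaneDefs

/-!
P235-M, all planar (helper11).  The subdivision of every edge of a plane map.
-/

namespace Vale.Agent.P235.R2.H11

open Vale.Agent.P235 SimpleGraph Equiv

variable {V : Type}

/-- every edge of `G` is subdivided once -/
def sub (G : SimpleGraph V) : SimpleGraph (V ⊕ G.edgeSet) where
  Adj
    | Sum.inl v, Sum.inr e => v ∈ (e : Sym2 V)
    | Sum.inr e, Sum.inl v => v ∈ (e : Sym2 V)
    | Sum.inl _, Sum.inl _ => False
    | Sum.inr _, Sum.inr _ => False
  symm := ⟨by
    rintro (v | e) (w | f) h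
    all_goals exact h⟩
  loopless := ⟨by
    rintro (v | e) h
    all_goals exact h⟩

variable {G : SimpleGraph V}

theorem sub_lr {v : V} {e : G.edgeSet} : (sub G).Adj (Sum.inl v) (Sum.inr e) ↔ v ∈ (e : Sym2 V) :=
  Iff.rfl

theorem sub_rl {v : V} {e : G.edgeSet} : (sub G).Adj (Sum.inr e) (Sum.inl v) ↔ v ∈ (e : Sym2 V) :=
  Iff.rfl

theorem sub_ll {v w : V} : ¬ (sub G).Adj (Sum.inl v) (Sum.inl w) := fun h => h

theorem sub_rr {e f : G.edgeSet} : ¬ (sub G).Adj (Sum.inr e) (Sum.inr f) := fun h => h

/-- the edge of a dart -/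
def de (d : G.Dart) : G.edgeSet := ⟨d.edge, d.edge_mem⟩

theorem de_eq {d e : G.Dart} (h : de d = de e) : d = e ∨ d = e.symm :=
  dart_edge_eq_iff d e |>.1 (congrArg Subtype.val h)

theorem de_symm (d : G.Dart) : de d.symm = de d := Subtype.ext (Dart.edge_symm d)

/-- the two halves of a dart: from its start to the new vertex, from the new vertex to its end -/
def half : G.Dart × Bool → (sub G).Dart
  | (d, false) => ⟨(Sum.inl d.fst, Sum.inr (de d)), Sym2.mem_mk_left d.fst d.snd⟩
  | (d, true) => ⟨(Sum.inr (de d), Sum.inl d.snd), Sym2.mem_mk_right d.fst d.snd⟩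

theorem half_inj : Function.Injective (half (G := G)) := by
  rintro ⟨d, b⟩ ⟨e, c⟩ h
  have h1 : (half (d, b)).fst = (half (e, c)).fst := by rw [h]
  have h2 : (half (d, b)).snd = (half (e, c)).snd := by rw [h]
  cases b <;> cases c
  · have h3 : d.fst = e.fst := Sum.inl.inj h1
    rcases de_eq (Sum.inr.inj h2) with rfl | he
    · rfl
    · exfalso
      rw [he] at h3
      exact e.adj.ne h3.symm
  · exact absurd h1 Sum.inl_ne_inr
  · exact absurd h1 Sum.inr_ne_inl
  · have h3 : d.snd = e.snd := Sum.inl.inj h2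
    rcases de_eq (Sum.inr.inj h1) with rfl | he
    · rfl
    · exfalso
      rw [he] at h3
      exact e.adj.ne h3

theorem half_surj : Function.Surjective (half (G := G)) := by
  rintro ⟨⟨v | e, w | f⟩, h⟩
  · exact absurd h sub_ll
  · obtain ⟨f, hf⟩ := f
    induction f using Sym2.ind with
    | _ a b =>
      rcases Sym2.mem_iff.1 (sub_lr.1 h) with rfl | rfl
      · exact ⟨(⟨(v, b), hf⟩, false), rfl⟩
      · refine ⟨(⟨(v, a), hf.symm⟩, false), ?_⟩
        apply Dart.ext
        exact Prod.ext rfl (congrArg Sum.inr (Subtype.ext Sym2.eq_swap))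
  · obtain ⟨e, he⟩ := e
    induction e using Sym2.ind with
    | _ a b =>
      rcases Sym2.mem_iff.1 (sub_rl.1 h) with rfl | rfl
      · refine ⟨(⟨(b, w), he.symm⟩, true), ?_⟩
        apply Dart.ext
        exact Prod.ext (congrArg Sum.inr (Subtype.ext Sym2.eq_swap)) rfl
      · exact ⟨(⟨(a, w), he⟩, true), rfl⟩
  · exact absurd h sub_rr

/-- the darts of the subdivision -/
noncomputable def halfE (G : SimpleGraph V) : G.Dart × Bool ≃ (sub G).Dart :=
  Equiv.ofBijective half ⟨half_inj, half_surj⟩

theorem halfE_apply (x : G.Dart × Bool) : halfE G x = half x := rfl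

theorem half_symm (d : G.Dart) (b : Bool) : (half (d, b)).symm = half (d.symm, !b) := by
  cases b
  · apply Dart.ext
    exact Prod.ext (congrArg Sum.inr (de_symm d).symm) rfl
  · apply Dart.ext
    exact Prod.ext rfl (congrArg Sum.inr (de_symm d).symm)

/-- the rotation of the subdivision, on pairs -/
def rot0 (σ : Perm G.Dart) : Perm (G.Dart × Bool) where
  toFun
    | (d, false) => (σ d, false)
    | (d, true) => (d.symm, true)
  invFun
    | (d, false) => (σ⁻¹ d, false)
    | (d, true) => (d.symm, true)
  left_inv := by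
    rintro ⟨d, b⟩
    cases b <;> simp
  right_inv := by
    rintro ⟨d, b⟩
    cases b <;> simp

/-- the face permutation of the subdivision, on pairs -/
def next0 (σ : Perm G.Dart) : Perm (G.Dart × Bool) where
  toFun
    | (d, false) => (d, true)
    | (d, true) => (faceNext σ d, false)
  invFun
    | (d, false) => ((faceNext σ)⁻¹ d, true)
    | (d, true) => (d, false)
  left_inv := by
    rintro ⟨d, b⟩
    cases b <;> simp
  right_inv := by
    rintro ⟨d, b⟩
    cases b <;> simp

/-- the rotation of the subdivision -/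
noncomputable def rotS (σ : Perm G.Dart) : Perm (sub G).Dart := (halfE G).permCongr (rot0 σ)

theorem rotS_apply (σ : Perm G.Dart) (x : G.Dart × Bool) : rotS σ (half x) = half (rot0 σ x) := by
  unfold rotS
  rw [Equiv.permCongr_apply, ← halfE_apply, Equiv.symm_apply_apply, halfE_apply]

theorem faceNext_rotS (σ : Perm G.Dart) :
    faceNext (rotS σ) = (halfE G).permCongr (next0 σ) := by
  ext1 y
  obtain ⟨⟨d, b⟩, rfl⟩ := (halfE G).surjective y
  rw [Equiv.permCongr_apply, Equiv.symm_apply_apply]
  show rotS σ ((half (d, b)).symm) = half (next0 σ (d, b))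
  rw [half_symm, rotS_apply]
  cases b <;> rfl

section conj

variable {α β : Type}

theorem permCongr_zpow (E : α ≃ β) (f : Perm α) (n : ℤ) :
    (E.permCongr f) ^ n = E.permCongr (f ^ n) := by
  have := map_zpow (Equiv.permCongrHom E) f n
  exact this.symm

theorem sameCycle_permCongr (E : α ≃ β) (f : Perm α) (x y : α) :
    (E.permCongr f).SameCycle (E x) (E y) ↔ f.SameCycle x y := by
  unfold Equiv.Perm.SameCycle
  refine exists_congr fun n => ?_
  rw [permCongr_zpow, Equiv.permCongr_apply, Equiv.symm_apply_apply, E.apply_eq_iff_eq]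

end conj

theorem rot0_zpow (σ : Perm G.Dart) (n : ℤ) (d : G.Dart) :
    (rot0 σ ^ n) (d, false) = ((σ ^ n) d, false) := by
  induction n using Int.induction_on generalizing d with
  | zero => rfl
  | succ n ih =>
    rw [zpow_add_one, zpow_add_one, Perm.mul_apply, Perm.mul_apply]
    exact ih (σ d)
  | pred n ih =>
    rw [zpow_sub_one, zpow_sub_one, Perm.mul_apply, Perm.mul_apply]
    exact ih (σ⁻¹ d)

theorem next0_two (σ : Perm G.Dart) (n : ℤ) (d : G.Dart) :
    (next0 σ ^ (2 * n)) (d, false) = ((faceNext σ ^ n) d, false) := by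
  rw [zpow_mul]
  induction n using Int.induction_on generalizing d with
  | zero => rfl
  | succ n ih =>
    rw [zpow_add_one, zpow_add_one, Perm.mul_apply, Perm.mul_apply]
    exact ih (faceNext σ d)
  | pred n ih =>
    rw [zpow_sub_one, zpow_sub_one, Perm.mul_apply, Perm.mul_apply]
    exact ih ((faceNext σ)⁻¹ d)

theorem next0_sameCycle (σ : Perm G.Dart) (d e : G.Dart) :
    (next0 σ).SameCycle (d, false) (e, false) ↔ (faceNext σ).SameCycle d e := by
  constructor
  · rintro ⟨n, hn⟩
    rcases Int.even_or_odd' n with ⟨m, rfl | rfl⟩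
    · rw [next0_two] at hn
      exact ⟨m, (Prod.ext_iff.1 hn).1⟩
    · exfalso
      rw [add_comm, zpow_add, Perm.mul_apply, next0_two, zpow_one] at hn
      have := (Prod.ext_iff.1 hn).2
      simp [next0] at this
  · rintro ⟨n, hn⟩
    exact ⟨2 * n, by rw [next0_two, hn]⟩

/-- the faces of the subdivision are the faces of the plane map -/
theorem faces_eq (σ : Perm G.Dart) :
    Nat.card (Quotient (Perm.SameCycle.setoid (faceNext (rotS σ)))) =
      Nat.card (Quotient (Perm.SameCycle.setoid (faceNext σ))) := by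
  have key : ∀ d e : G.Dart, (faceNext (rotS σ)).SameCycle (half (d, false)) (half (e, false)) ↔
      (faceNext σ).SameCycle d e := by
    intro d e
    rw [faceNext_rotS, ← halfE_apply, ← halfE_apply, sameCycle_permCongr, next0_sameCycle]
  symm
  refine Nat.card_congr (Equiv.ofBijective
    (Quotient.map' (fun d => half (d, false)) fun d e h => (key d e).2 h) ⟨?_, ?_⟩)
  · intro x y
    induction x using Quotient.inductionOn' with
    | _ d =>
      induction y using Quotient.inductionOn' with
      | _ e =>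
        intro h
        exact Quotient.sound' ((key d e).1 (Quotient.exact' h))
  · intro y
    induction y using Quotient.inductionOn' with
    | _ y =>
      obtain ⟨⟨d, b⟩, rfl⟩ := half_surj y
      cases b
      · exact ⟨Quotient.mk'' d, rfl⟩
      · refine ⟨Quotient.mk'' d, Quotient.sound' ?_⟩
        show (faceNext (rotS σ)).SameCycle (half (d, false)) (half (d, true))
        rw [faceNext_rotS, ← halfE_apply, ← halfE_apply, sameCycle_permCongr]
        exact ⟨1, by rw [zpow_one]; rfl⟩

theorem two_mul_card_edgeSet [Finite V] (G : SimpleGraph V) :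
    Nat.card G.Dart = 2 * Nat.card G.edgeSet := by
  classical
  have := Fintype.ofFinite V
  rw [Nat.card_eq_fintype_card, dart_card_eq_twice_card_edges, Nat.card_eq_fintype_card,
    SimpleGraph.edgeFinset_card]

theorem finite_edgeSet [Finite V] (G : SimpleGraph V) : Finite G.edgeSet :=
  Set.toFinite G.edgeSet

theorem card_edge_sub [Finite V] (G : SimpleGraph V) :
    Nat.card (sub G).edgeSet = 2 * Nat.card G.edgeSet := by
  have := finite_edgeSet G
  have h1 := two_mul_card_edgeSet (sub G)
  have h2 := two_mul_card_edgeSet G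
  have h3 : Nat.card (sub G).Dart = Nat.card (G.Dart × Bool) := Nat.card_congr (halfE G).symm
  rw [Nat.card_prod, Nat.card_eq_fintype_card (α := Bool), Fintype.card_bool] at h3
  omega

/-- **The subdivision of a plane map is a plane map.** -/
theorem planeMap_sub [Finite V] {σ : Perm G.Dart} (h : PlaneMap G σ) :
    PlaneMap (sub G) (rotS σ) where
  fst := by
    intro y
    obtain ⟨⟨d, b⟩, rfl⟩ := half_surj y
    rw [rotS_apply]
    cases b
    · exact congrArg Sum.inl (h.fst d)
    · exact congrArg Sum.inr (de_symm d)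
  cyc := by
    intro y z hyz
    obtain ⟨⟨d, b⟩, rfl⟩ := half_surj y
    obtain ⟨⟨e, c⟩, rfl⟩ := half_surj z
    unfold rotS
    rw [← halfE_apply, ← halfE_apply, sameCycle_permCongr]
    cases b <;> cases c
    · obtain ⟨n, hn⟩ := h.cyc d e (Sum.inl.inj hyz)
      exact ⟨n, by rw [rot0_zpow, hn]⟩
    · exact absurd hyz Sum.inl_ne_inr
    · exact absurd hyz Sum.inr_ne_inl
    · rcases de_eq (Sum.inr.inj hyz) with rfl | rfl
      · exact Perm.SameCycle.refl _ _
      · exact ⟨1, by rw [zpow_one]; exact Prod.ext (Dart.symm_symm e) rfl⟩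
  euler := by
    have := finite_edgeSet G
    rw [faces_eq, card_edge_sub, Nat.card_sum]
    have := h.euler
    omega

theorem connected_sub [Nonempty V] (hc : G.Connected) : (sub G).Connected := by
  have h1 : ∀ u v : V, (sub G).Reachable (Sum.inl u) (Sum.inl v) := by
    intro u v
    obtain ⟨p⟩ := hc.preconnected u v
    induction p with
    | nil => exact Reachable.refl _
    | @cons a b c ha p ih =>
      refine Reachable.trans ?_ ih
      have e1 : (sub G).Adj (Sum.inl a) (Sum.inr ⟨s(a, b), ha⟩) := Sym2.mem_mk_left a b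
      have e2 : (sub G).Adj (Sum.inr ⟨s(a, b), ha⟩) (Sum.inl b) := Sym2.mem_mk_right a b
      exact e1.reachable.trans e2.reachable
  obtain ⟨r⟩ := ‹Nonempty V›
  have h2 : ∀ x : V ⊕ G.edgeSet, (sub G).Reachable x (Sum.inl r) := by
    rintro (v | ⟨e, he⟩)
    · exact h1 v r
    · induction e using Sym2.ind with
      | _ a b =>
        have e2 : (sub G).Adj (Sum.inr ⟨s(a, b), he⟩) (Sum.inl b) := Sym2.mem_mk_right a b
        exact e2.reachable.trans (h1 b r)
  have : Nonempty (V ⊕ G.edgeSet) := ⟨Sum.inl r⟩
  exact ⟨fun x y => (h2 x).trans (h2 y).symm⟩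

end Vale.Agent.P235.R2.H11
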